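import Vale.Agent.Results.P208.LinearMapsFail

open Finset

namespace Vale.Agent.Results.P208.Combined

open Vale.Agent.Lib.P208 Vale.Agent.Results.P208.LinearMapsFail

universe u

/-- (1) Every doubling set of pairwise orthogonal vectors of a real inner product space, with
doubling constant at most `N`, embeds into `ℝ^(2N³)` with distortion at most `3`.
(2) In a real Hilbert space with an orthonormal sequence `e`, the set `{0} ∪ {2^{-i} e_i}` is
doubling with constant `2`, embeds into `ℝ^16` with distortion at most `3`, but no continuous linear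
map into a finite-dimensional Euclidean space is bi-Lipschitz on it. -/
theorem result :
    (∀ (H : Type u) [NormedAddCommGroup H] [InnerProductSpace ℝ H] (X : Set H) (N : ℕ),
      (∀ x ∈ X, ∀ y ∈ X, x ≠ y → inner ℝ x y = 0) → DoublingWith X N →
      BiLipEmbedsWith X (2 * N ^ 3) 3) ∧
    (∀ (H : Type u) [NormedAddCommGroup H] [InnerProductSpace ℝ H] [CompleteSpace H]
      (e : ℕ → H), Orthonormal ℝ e →
      DoublingWith (geomSet e) 2 ∧ BiLipEmbedsWith (geomSet e) 16 3 ∧
      ∀ (k : ℕ) (T : H →L[ℝ] EuclideanSpace ℝ (Fin k)) (a : ℝ), 0 < a →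
        ¬ ∀ x ∈ geomSet e, ∀ y ∈ geomSet e, a * dist x y ≤ dist (T x) (T y)) :=
  ⟨fun _ _ _ X N horth hD => OrthogonalSets.result X N horth hD,
    fun _ _ _ _ e he => LinearMapsFail.result e he⟩

end Vale.Agent.Results.P208.Combined
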