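import Vale.Agent.Results.P208.OrthogonalSets

open Finset

namespace Vale.Agent.Results.P208.LinearMapsFail

open Vale.Agent.Lib.P208

variable {H : Type*} [NormedAddCommGroup H] [InnerProductSpace ℝ H]

/-- the set `{0} ∪ {2^{-i} e_i}` -/
def geomSet (e : ℕ → H) : Set H := {0} ∪ Set.range (fun i : ℕ => ((1:ℝ) / 2) ^ i • e i)

theorem geomSet_orth (e : ℕ → H) (he : Orthonormal ℝ e) :
    ∀ x ∈ geomSet e, ∀ y ∈ geomSet e, x ≠ y → inner ℝ x y = 0 := by
  intro x hx y hy hxy
  rcases hx with hx | ⟨i, rfl⟩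
  · rw [Set.mem_singleton_iff.mp hx]; simp
  rcases hy with hy | ⟨j, rfl⟩
  · rw [Set.mem_singleton_iff.mp hy]; simp
  have hij : i ≠ j := by
    rintro rfl
    exact hxy rfl
  simp only [inner_smul_left, inner_smul_right, he.2 hij, mul_zero]

theorem geomSet_doubling (e : ℕ → H) (he : Orthonormal ℝ e) : DoublingWith (geomSet e) 2 := by
  classical
  intro x hx r hr
  have horth := geomSet_orth e he
  have h0mem : (0:H) ∈ geomSet e := Or.inl rfl
  have hdist : ∀ z ∈ geomSet e, z ≠ x → ‖z‖ ≤ dist z x ∧ ‖x‖ ≤ dist z x := by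
    intro z hz hzx
    have h := OrthogonalSets.dist_sq_of_orth z x (horth z hz x hx hzx)
    constructor
    · apply (pow_le_pow_iff_left₀ (norm_nonneg z) dist_nonneg (by norm_num : (2:ℕ) ≠ 0)).mp
      nlinarith [norm_nonneg x]
    · apply (pow_le_pow_iff_left₀ (norm_nonneg x) dist_nonneg (by norm_num : (2:ℕ) ≠ 0)).mp
      nlinarith [norm_nonneg z]
  by_cases hcase : r < ‖x‖
  · refine ⟨{x}, by simpa using hx, by simp, ?_⟩
    intro z hz
    have : z = x := by
      by_contra hne
      have := (hdist z hz.1 hne).2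
      have h2 : dist z x ≤ r := hz.2
      linarith
    rw [this]
    simp only [mem_singleton, Set.iUnion_iUnion_eq_left, Metric.mem_closedBall, dist_self]
    positivity
  push Not at hcase
  have hnorm : ∀ z ∈ geomSet e ∩ Metric.closedBall x r, ‖z‖ ≤ r := by
    intro z hz
    by_cases hzx : z = x
    · rw [hzx]; exact hcase
    · exact (hdist z hz.1 hzx).1.trans hz.2
  by_cases hex : ∃ z0 ∈ geomSet e, r / 2 < ‖z0‖ ∧ ‖z0‖ ≤ r
  · obtain ⟨z0, hz0, hz0l, hz0u⟩ := hex
    refine ⟨{0, z0}, ?_, card_le_two, ?_⟩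
    · intro y hy
      simp only [coe_insert, coe_singleton, Set.mem_insert_iff, Set.mem_singleton_iff] at hy
      rcases hy with rfl | rfl
      · exact h0mem
      · exact hz0
    · intro z hz
      simp only [mem_insert, mem_singleton, Set.iUnion_iUnion_eq_or_left, Set.iUnion_iUnion_eq_left,
        Set.mem_union, Metric.mem_closedBall, dist_zero_right]
      by_cases hzs : ‖z‖ ≤ r / 2
      · exact Or.inl hzs
      · right
        push Not at hzs
        have hzr := hnorm z hz
        have : z = z0 := by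
          rcases hz.1 with hz' | ⟨i, rfl⟩
          · rw [Set.mem_singleton_iff.mp hz'] at hzs
            simp at hzs
            linarith
          rcases hz0 with hz0' | ⟨j, rfl⟩
          · rw [Set.mem_singleton_iff.mp hz0'] at hz0l
            simp at hz0l
            linarith
          have hn : ∀ i : ℕ, ‖((1:ℝ) / 2) ^ i • e i‖ = ((1:ℝ) / 2) ^ i := by
            intro i
            rw [norm_smul, he.1 i, mul_one, Real.norm_eq_abs, abs_of_nonneg (by positivity)]
          simp only [hn] at hzs hzr hz0l hz0u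
          have hmono : ∀ a b : ℕ, a < b → ((1:ℝ) / 2) ^ b ≤ ((1:ℝ) / 2) ^ a / 2 := by
            intro a b hab
            calc ((1:ℝ) / 2) ^ b ≤ ((1:ℝ) / 2) ^ (a + 1) :=
                  pow_le_pow_of_le_one (by norm_num) (by norm_num) hab
              _ = ((1:ℝ) / 2) ^ a / 2 := by rw [pow_succ]; ring
          have hij : i = j := by
            rcases lt_trichotomy i j with h | h | h
            · have := hmono i j h; linarith
            · exact h
            · have := hmono j i h; linarith
          rw [hij]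
        rw [this, dist_self]
        positivity
  · push Not at hex
    refine ⟨{0}, by simpa using h0mem, by simp, ?_⟩
    intro z hz
    simp only [mem_singleton, Set.iUnion_iUnion_eq_left, Metric.mem_closedBall, dist_zero_right]
    by_contra hcon
    push Not at hcon
    have := hex z hz.1 hcon
    linarith [hnorm z hz]

theorem no_linear [CompleteSpace H] (e : ℕ → H) (he : Orthonormal ℝ e) (k : ℕ)
    (T : H →L[ℝ] EuclideanSpace ℝ (Fin k)) (a : ℝ) (ha : 0 < a)
    (hT : ∀ x ∈ geomSet e, ∀ y ∈ geomSet e, a * dist x y ≤ dist (T x) (T y)) : False := by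
  have hlow : ∀ i, a ≤ ‖T (e i)‖ := by
    intro i
    have h := hT (((1:ℝ) / 2) ^ i • e i) (Or.inr ⟨i, rfl⟩) 0 (Or.inl rfl)
    simp only [dist_zero_right, map_zero, map_smul, norm_smul, he.1 i, mul_one, Real.norm_eq_abs] at h
    have hpos : (0:ℝ) < |((1:ℝ) / 2) ^ i| := by positivity
    have h2 : |((1:ℝ) / 2) ^ i| * a ≤ |((1:ℝ) / 2) ^ i| * ‖T (e i)‖ := by linarith
    exact le_of_mul_le_mul_left h2 hpos
  set B : ℝ := ∑ m : Fin k, ‖(ContinuousLinearMap.adjoint T) (EuclideanSpace.single m (1:ℝ))‖ ^ 2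
    with hB
  have hup : ∀ M : ℕ, ∑ i ∈ range M, ‖T (e i)‖ ^ 2 ≤ B := by
    intro M
    have h1 : ∀ i, ‖T (e i)‖ ^ 2 = ∑ m : Fin k,
        ‖inner ℝ (e i) ((ContinuousLinearMap.adjoint T) (EuclideanSpace.single m (1:ℝ)))‖ ^ 2 := by
      intro i
      rw [EuclideanSpace.norm_sq_eq]
      apply sum_congr rfl
      intro m _
      rw [ContinuousLinearMap.adjoint_inner_right, EuclideanSpace.inner_single_right]
      simp
    simp only [h1]
    rw [sum_comm]
    apply sum_le_sum
    intro m _
    exact he.sum_inner_products_le _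
  obtain ⟨M, hM⟩ := exists_nat_gt (B / a ^ 2)
  have h1 := hup M
  have h2 : (M:ℝ) * a ^ 2 ≤ ∑ i ∈ range M, ‖T (e i)‖ ^ 2 := by
    calc (M:ℝ) * a ^ 2 = ∑ i ∈ range M, a ^ 2 := by simp
      _ ≤ _ := sum_le_sum (fun i _ => pow_le_pow_left₀ ha.le (hlow i) 2)
  rw [div_lt_iff₀ (by positivity)] at hM
  linarith

/-- In a real Hilbert space with an orthonormal sequence `e` (for instance `ℓ²` with its standard
basis) the set `X = {0} ∪ {2^{-i} e_i}` has doubling constant at most `2` and embeds bi-Lipschitzly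
into `ℝ^16` with distortion `3`, although no continuous linear map to any `ℝ^k` satisfies even the
lower bi-Lipschitz bound on `X`. -/
theorem result [CompleteSpace H] (e : ℕ → H) (he : Orthonormal ℝ e) :
    DoublingWith (geomSet e) 2 ∧ BiLipEmbedsWith (geomSet e) 16 3 ∧
    ∀ (k : ℕ) (T : H →L[ℝ] EuclideanSpace ℝ (Fin k)) (a : ℝ), 0 < a →
      ¬ ∀ x ∈ geomSet e, ∀ y ∈ geomSet e, a * dist x y ≤ dist (T x) (T y) :=
  ⟨geomSet_doubling e he,
    OrthogonalSets.result (geomSet e) 2 (geomSet_orth e he) (geomSet_doubling e he),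
    fun k T a ha hT => no_linear e he k T a ha hT⟩

end Vale.Agent.Results.P208.LinearMapsFail
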