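import Vale.Agent.Lib.P208.Basic

open Finset

namespace Vale.Agent.Results.P208.OrthogonalSets

open Vale.Agent.Lib.P208

variable {H : Type*} [NormedAddCommGroup H] [InnerProductSpace ℝ H]

theorem dist_sq_of_orth (x y : H) (h : inner ℝ x y = 0) :
    dist x y ^ 2 = ‖x‖ ^ 2 + ‖y‖ ^ 2 := by
  rw [dist_eq_norm, norm_sub_sq_real, h]
  ring

theorem scale_le (x : H) (hx : x ≠ 0) : (2:ℝ) ^ (Int.log 2 ‖x‖) ≤ ‖x‖ := by
  have := Int.zpow_log_le_self (b := 2) (by norm_num) (norm_pos_iff.mpr hx)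
  exact_mod_cast this

theorem lt_scale (x : H) : ‖x‖ < (2:ℝ) ^ (Int.log 2 ‖x‖ + 1) := by
  have := Int.lt_zpow_succ_log_self (b := 2) (by norm_num) ‖x‖
  exact_mod_cast this

theorem count (X : Set H) (N : ℕ) (horth : ∀ x ∈ X, ∀ y ∈ X, x ≠ y → inner ℝ x y = 0)
    (hD : DoublingWith X N) (s : ℤ) (Y : Finset H)
    (hY : ∀ y ∈ Y, y ∈ X ∧ y ≠ 0 ∧ Int.log 2 ‖y‖ = s) : Y.card ≤ N ^ 3 := by
  rcases Y.eq_empty_or_nonempty with rfl | ⟨x0, hx0⟩
  · simp
  have hpos : (0:ℝ) < (2:ℝ) ^ s := by positivity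
  have hup : ∀ y ∈ Y, ‖y‖ < 2 * (2:ℝ) ^ s := by
    intro y hy
    have := lt_scale y
    rw [(hY y hy).2.2, zpow_add₀ (by norm_num), zpow_one] at this
    linarith
  have hlow : ∀ y ∈ Y, (2:ℝ) ^ s ≤ ‖y‖ := by
    intro y hy
    have := scale_le y (hY y hy).2.1
    rwa [(hY y hy).2.2] at this
  apply hD.card_le_of_separated 3 x0 (hY x0 hx0).1 (4 * (2:ℝ) ^ s) (by positivity) Y
    (fun y hy => (hY y hy).1)
  · intro y hy
    calc dist y x0 ≤ ‖y‖ + ‖x0‖ := by rw [dist_eq_norm]; exact norm_sub_le _ _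
      _ ≤ 4 * (2:ℝ) ^ s := by linarith [hup y hy, hup x0 hx0]
  · intro y hy y' hy' hne
    have h1 := dist_sq_of_orth y y' (horth y (hY y hy).1 y' (hY y' hy').1 hne)
    have h2 := hlow y hy
    have h3 := hlow y' hy'
    have e : 2 * (4 * (2:ℝ) ^ s / 2 ^ 3) = (2:ℝ) ^ s := by ring
    rw [e]
    by_contra hcon
    push Not at hcon
    have h4 : dist y y' ^ 2 ≤ ((2:ℝ) ^ s) ^ 2 := pow_le_pow_left₀ dist_nonneg hcon 2
    nlinarith

/-- Every doubling set of pairwise orthogonal vectors of a real inner product space (for instance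
of `ℓ²`), with doubling constant at most `N`, embeds into `ℝ^(2N³)` with distortion at most `3`. -/
theorem result (X : Set H) (N : ℕ) (horth : ∀ x ∈ X, ∀ y ∈ X, x ≠ y → inner ℝ x y = 0)
    (hD : DoublingWith X N) : BiLipEmbedsWith X (2 * N ^ 3) 3 := by
  classical
  -- indexing inside each scale
  have hidx : ∀ s : ℤ, ∃ j : H → ℕ, (∀ x, x ∈ X ∧ x ≠ 0 ∧ Int.log 2 ‖x‖ = s → j x < N ^ 3) ∧
      Set.InjOn j {x | x ∈ X ∧ x ≠ 0 ∧ Int.log 2 ‖x‖ = s} := by
    intro s
    have hfin : {x : H | x ∈ X ∧ x ≠ 0 ∧ Int.log 2 ‖x‖ = s}.Finite := by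
      by_contra hinf
      obtain ⟨Y, hYsub, hYcard⟩ := (Set.not_finite.mp hinf).exists_subset_card_eq (N ^ 3 + 1)
      have := count X N horth hD s Y (fun y hy => hYsub hy)
      omega
    have hcard : hfin.toFinset.card ≤ N ^ 3 :=
      count X N horth hD s _ (fun y hy => (Set.Finite.mem_toFinset hfin).mp hy)
    let e := hfin.toFinset.equivFin
    refine ⟨fun x => if hx : x ∈ hfin.toFinset then (e ⟨x, hx⟩ : ℕ) else 0, ?_, ?_⟩
    · intro x hx
      have hx' : x ∈ hfin.toFinset := (Set.Finite.mem_toFinset hfin).mpr hx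
      simp only [hx', dif_pos]
      exact lt_of_lt_of_le (e ⟨x, hx'⟩).2 hcard
    · intro x hx y hy hxy
      have hx' : x ∈ hfin.toFinset := (Set.Finite.mem_toFinset hfin).mpr hx
      have hy' : y ∈ hfin.toFinset := (Set.Finite.mem_toFinset hfin).mpr hy
      simp only [hx', hy', dif_pos] at hxy
      have := e.injective (Fin.ext hxy)
      exact congrArg Subtype.val this
  choose j hjlt hjinj using hidx
  set k := 2 * N ^ 3 with hk
  set c : H → ℕ := fun x => 2 * j (Int.log 2 ‖x‖) x + (Int.log 2 ‖x‖ % 2).toNat with hc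
  have hclt : ∀ x ∈ X, x ≠ 0 → c x < k := by
    intro x hx hx0
    have h1 := hjlt (Int.log 2 ‖x‖) x ⟨hx, hx0, rfl⟩
    have h2 : (Int.log 2 ‖x‖ % 2).toNat < 2 := by omega
    simp only [hc, hk]
    omega
  set u : H → EuclideanSpace ℝ (Fin k) := fun x =>
    if h : c x < k then EuclideanSpace.single ⟨c x, h⟩ (1:ℝ) else 0 with hu
  have hunorm : ∀ x ∈ X, x ≠ 0 → ‖u x‖ = 1 := by
    intro x hx hx0
    simp only [hu, hclt x hx hx0, dif_pos]
    simp
  have huinner : ∀ x ∈ X, x ≠ 0 → ∀ y ∈ X, y ≠ 0 → c x ≠ c y → inner ℝ (u x) (u y) = 0 := by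
    intro x hx hx0 y hy hy0 hne
    simp only [hu, hclt x hx hx0, hclt y hy hy0, dif_pos]
    rw [EuclideanSpace.inner_single_left]
    simp [hne.symm]
  have hueq : ∀ x y : H, c x = c y → u x = u y := by
    intro x y h
    simp only [hu, h]
  refine ⟨fun x => ‖x‖ • u x, 1 / 3, by norm_num, ?_⟩
  intro x hx y hy
  have e3 : (3:ℝ) * (1 / 3) * dist x y = dist x y := by ring
  rw [e3]
  by_cases hxy : x = y
  · subst hxy
    simp
  have horth' := horth x hx y hy hxy
  have hdsq := dist_sq_of_orth x y horth'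
  have hd0 : 0 ≤ dist x y := dist_nonneg
  -- the isometric case
  have hiso : dist (‖x‖ • u x) (‖y‖ • u y) ^ 2 = ‖x‖ ^ 2 + ‖y‖ ^ 2 →
      1 / 3 * dist x y ≤ dist (‖x‖ • u x) (‖y‖ • u y) ∧
        dist (‖x‖ • u x) (‖y‖ • u y) ≤ dist x y := by
    intro h
    have : dist (‖x‖ • u x) (‖y‖ • u y) = dist x y := by
      have h2 : dist (‖x‖ • u x) (‖y‖ • u y) ^ 2 = dist x y ^ 2 := by rw [h, hdsq]
      exact (pow_left_inj₀ dist_nonneg dist_nonneg (by norm_num)).mp h2
    rw [this]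
    constructor <;> linarith
  by_cases hx0 : x = 0
  · apply hiso
    have hy0 : y ≠ 0 := fun h => hxy (by rw [hx0, h])
    rw [hx0]
    simp [dist_eq_norm, norm_smul, hunorm y hy hy0]
  by_cases hy0 : y = 0
  · apply hiso
    rw [hy0]
    simp [dist_eq_norm, norm_smul, hunorm x hx hx0]
  by_cases hcc : c x = c y
  · -- same colour: the scales differ by at least two
    have hu' := hueq x y hcc
    have hdist : dist (‖x‖ • u x) (‖y‖ • u y) = |‖x‖ - ‖y‖| := by
      rw [hu', dist_eq_norm, ← sub_smul, norm_smul, hunorm y hy hy0, mul_one, Real.norm_eq_abs]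
    rw [hdist]
    refine ⟨?_, by rw [dist_eq_norm]; exact abs_norm_sub_norm_le x y⟩
    set sx := Int.log 2 ‖x‖ with hsx
    set sy := Int.log 2 ‖y‖ with hsy
    have hpar : j sx x = j sy y ∧ sx % 2 = sy % 2 := by
      simp only [hc] at hcc
      rw [← hsx, ← hsy] at hcc
      omega
    have hsne : sx ≠ sy := by
      intro h
      apply hxy
      apply hjinj sx ⟨hx, hx0, rfl⟩ ⟨hy, hy0, by rw [← hsy, h]⟩
      rw [hpar.1, h]
    have htri : dist x y ≤ ‖x‖ + ‖y‖ := by rw [dist_eq_norm]; exact norm_sub_le _ _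
    have key : ∀ (a b : H) (sa sb : ℤ), a ≠ 0 → b ≠ 0 → sa = Int.log 2 ‖a‖ → sb = Int.log 2 ‖b‖ →
        sa + 2 ≤ sb → 2 * ‖a‖ ≤ ‖b‖ := by
      intro a b sa sb _ hb0 hsa hsb hle
      have h1 := lt_scale a
      have h2 := scale_le b hb0
      rw [← hsa] at h1
      rw [← hsb] at h2
      have h3 : (2:ℝ) ^ (sa + 1) * 2 ≤ (2:ℝ) ^ sb := by
        have : (2:ℝ) ^ (sa + 1) * 2 = (2:ℝ) ^ (sa + 2) := by
          rw [show sa + 2 = sa + 1 + 1 by ring, zpow_add₀ (by norm_num : (2:ℝ) ≠ 0) (sa + 1) 1,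
            zpow_one]
        rw [this]
        exact zpow_le_zpow_right₀ (by norm_num) hle
      linarith
    rcases lt_or_gt_of_ne hsne with hlt | hgt
    · have h2 := key x y sx sy hx0 hy0 hsx hsy (by omega)
      have hxn : 0 ≤ ‖x‖ := norm_nonneg _
      rw [abs_sub_comm, abs_of_nonneg (by linarith)]
      linarith
    · have h2 := key y x sy sx hy0 hx0 hsy hsx (by omega)
      have hyn : 0 ≤ ‖y‖ := norm_nonneg _
      rw [abs_of_nonneg (by linarith)]
      linarith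
  · apply hiso
    rw [dist_eq_norm, norm_sub_sq_real, norm_smul, norm_smul, hunorm x hx hx0, hunorm y hy hy0,
      inner_smul_left, inner_smul_right, huinner x hx hx0 y hy hy0 hcc]
    simp

end Vale.Agent.Results.P208.OrthogonalSets
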